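import Mathlib

/-!
P245, abstract resolvent layer (helper924): from the chain `G_k` of smoothed moment matrices and the dyadic
resolvents `J_j = (1 + 2^{-j} A)^{-1}` to the inequality `d_1(ζ,ζ) ≤ C ‖A ζ‖²`, with an absolute constant.
No semigroup, no spectral theorem.
-/

set_option linter.all false

open Filter Topology
open scoped RealInnerProductSpace

namespace Vale.Agent.P245.AbsRes

/-- the interface -/
structure Fr (H : Type*) [NormedAddCommGroup H] [InnerProductSpace ℝ H] where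
  D : Submodule ℝ H
  A : D →ₗ[ℝ] H
  J : ℕ → H →ₗ[ℝ] H
  G : ℕ → H →ₗ[ℝ] H
  d : ℕ → D →ₗ[ℝ] D →ₗ[ℝ] ℝ
  M : ℝ
  M1 : 1 ≤ M
  memD : ∀ j u, J j u ∈ D
  AJ : ∀ j u, A ⟨J j u, memD j u⟩ = (2 : ℝ) ^ j • (u - J j u)
  JA : ∀ j (w : D), J j (A w) = (2 : ℝ) ^ j • ((w : H) - J j w)
  Apos : ∀ w : D, 0 ≤ ⟪A w, (w : H)⟫
  dense : Dense (D : Set H)
  Gsymm : ∀ k u v, ⟪G k u, v⟫ = ⟪u, G k v⟫
  Gpos : ∀ k u, 0 ≤ ⟪G k u, u⟫
  Gle : ∀ k u, ⟪G k u, u⟫ ≤ M * ‖u‖ ^ 2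
  Gmono : ∀ (k : ℕ) u, ⟪G k u, u⟫ ≤ (1 + 1 / ((k : ℝ) + 1)) * ⟪G (k + 1) u, u⟫
  Glim : ∀ u, Tendsto (fun k => ⟪G k u, u⟫) atTop (𝓝 (‖u‖ ^ 2))
  dsymm : ∀ w w', d 1 w w' = d 1 w' w
  dpos : ∀ (k : ℕ) w, 0 ≤ d (k + 1) w w
  dle : ∀ w, d 1 w w ≤ M * (‖(w : H)‖ * ‖A w‖ + ‖(w : H)‖ ^ 2)
  cs : ∀ (k : ℕ) (w w' : D), (⟪A w, G (k + 1) w'⟫ - d (k + 1) w w') ^ 2 ≤
    (9 / ((k : ℝ) + 1)) * d (k + 1) w w * ⟪G (k + 1) (w' : H), (w' : H)⟫
  step : ∀ (k : ℕ) (w : D), ⟪G k (w : H), (w : H)⟫ = ⟪G (k + 1) (w : H), (w : H)⟫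
    + (2 / ((k : ℝ) + 1)) * (⟪A w, G (k + 1) w⟫ - d (k + 1) w w)

variable {H : Type*} [NormedAddCommGroup H] [InnerProductSpace ℝ H]

namespace Fr

variable (F : Fr H)

/-! ### the resolvents -/

theorem firm (j : ℕ) (u : H) : ‖F.J j u‖ ^ 2 ≤ ⟪F.J j u, u⟫ := by
  have h := F.Apos ⟨F.J j u, F.memD j u⟩
  rw [F.AJ] at h
  simp only [inner_smul_left, RCLike.conj_to_real, inner_sub_left] at h
  have h2 : (0 : ℝ) < 2 ^ j := by positivity
  have h3 := nonneg_of_mul_nonneg_right h h2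
  rw [real_inner_self_eq_norm_sq, real_inner_comm] at h3
  linarith

theorem norm_J (j : ℕ) (u : H) : ‖F.J j u‖ ≤ ‖u‖ := by
  have h := F.firm j u
  have h1 := real_inner_le_norm (F.J j u) u
  rcases eq_or_lt_of_le (norm_nonneg (F.J j u)) with h0 | h0
  · rw [← h0]; exact norm_nonneg _
  · nlinarith

theorem norm_sub_J (j : ℕ) (u : H) : ‖u - F.J j u‖ ≤ ‖u‖ := by
  have h := F.firm j u
  have h1 : ‖u - F.J j u‖ ^ 2 ≤ ‖u‖ ^ 2 := by
    rw [norm_sub_sq_real, real_inner_comm]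
    nlinarith [sq_nonneg ‖F.J j u‖]
  exact (sq_le_sq₀ (norm_nonneg _) (norm_nonneg _)).1 h1

/-- the basic identity between two resolvents -/
theorem two (j m : ℕ) (u : H) :
    (2 : ℝ) ^ m • (F.J j u - F.J j (F.J m u)) = (2 : ℝ) ^ j • (F.J m u - F.J j (F.J m u)) := by
  have h := F.JA j ⟨F.J m u, F.memD m u⟩
  rw [F.AJ] at h
  simpa [map_smul, map_sub] using h

theorem comm (j m : ℕ) (u : H) : F.J j (F.J m u) = F.J m (F.J j u) := by
  by_cases hjm : j = m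
  · rw [hjm]
  have h1 := F.two j m u
  have h2 := F.two m j u
  have hne : (2 : ℝ) ^ j - 2 ^ m ≠ 0 := by
    intro h0
    have : (2 : ℝ) ^ j = 2 ^ m := by linarith
    exact hjm (pow_right_injective₀ (by norm_num) (by norm_num) this)
  have h3 : ((2 : ℝ) ^ j - 2 ^ m) • (F.J j (F.J m u) - F.J m (F.J j u)) = 0 := by
    have h1' : ((2 : ℝ) ^ j - 2 ^ m) • F.J j (F.J m u) = (2 : ℝ) ^ j • F.J m u - (2 : ℝ) ^ m • F.J j u := by
      rw [smul_sub, smul_sub] at h1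
      rw [sub_smul]
      rw [sub_eq_sub_iff_add_eq_add] at h1 ⊢
      rw [add_comm, ← h1, add_comm]
    have h2' : ((2 : ℝ) ^ j - 2 ^ m) • F.J m (F.J j u) = (2 : ℝ) ^ j • F.J m u - (2 : ℝ) ^ m • F.J j u := by
      rw [smul_sub, smul_sub] at h2
      rw [sub_smul]
      rw [sub_eq_sub_iff_add_eq_add] at h2 ⊢
      rw [h2, add_comm]
    rw [smul_sub, h1', h2', sub_self]
  rcases smul_eq_zero.1 h3 with h4 | h4
  · exact absurd h4 hne
  · exact sub_eq_zero.1 h4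

/-- `J_j = ½ J_{j+1} (1 + J_j)` -/
theorem half (j : ℕ) (u : H) : F.J j u = (1 / 2 : ℝ) • (F.J (j + 1) u + F.J j (F.J (j + 1) u)) := by
  have h := F.two j (j + 1) u
  have h2 : (2 : ℝ) ^ j ≠ 0 := by positivity
  have h3 : (2 : ℝ) ^ j • ((2 : ℝ) • (F.J j u - F.J j (F.J (j + 1) u))) =
      (2 : ℝ) ^ j • (F.J (j + 1) u - F.J j (F.J (j + 1) u)) := by
    rw [← h, smul_smul, pow_succ]
  have h4 : (2 : ℝ) • (F.J j u - F.J j (F.J (j + 1) u)) = F.J (j + 1) u - F.J j (F.J (j + 1) u) :=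
    smul_right_injective H h2 h3
  have h5 : (2 : ℝ) • F.J j u = F.J (j + 1) u + F.J j (F.J (j + 1) u) := by
    rw [smul_sub] at h4
    have : (2 : ℝ) • F.J j u = F.J (j + 1) u - F.J j (F.J (j + 1) u) + (2 : ℝ) • F.J j (F.J (j + 1) u) := by
      rw [← h4]; abel
    rw [this, two_smul]; abel
  rw [← h5, smul_smul]; norm_num

/-- `J_{j+1} - J_j = ½ (1 - J_j) J_{j+1}` -/
theorem diff (j : ℕ) (u : H) :
    F.J (j + 1) u - F.J j u = (1 / 2 : ℝ) • (F.J (j + 1) u - F.J j (F.J (j + 1) u)) := by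
  rw [F.half j u]
  module

/-- `J_m J_{m+1} u = J_{m+1}² ½ (u + J_m u)` -/
theorem mixed (m : ℕ) (u : H) : F.J m (F.J (m + 1) u) =
    F.J (m + 1) (F.J (m + 1) ((1 / 2 : ℝ) • (u + F.J m u))) := by
  rw [F.half m (F.J (m + 1) u)]
  simp only [map_smul, map_add]
  rw [F.comm m (m + 1) (F.J (m + 1) u), F.comm m (m + 1) u]

theorem lim (u : H) : Tendsto (fun j => F.J j u) atTop (𝓝 u) := by
  rw [Metric.tendsto_atTop]
  intro ε hε
  obtain ⟨w, hw, hwu⟩ := Metric.dense_iff.1 F.dense u (ε / 4) (by positivity)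
  have hwu' : ‖w - u‖ < ε / 4 := by
    rw [← dist_eq_norm]; exact hw
  have h1 : Tendsto (fun j : ℕ => ((1 / 2 : ℝ)) ^ j * ‖F.A ⟨w, hwu⟩‖) atTop (𝓝 (0 * ‖F.A ⟨w, hwu⟩‖)) :=
    (tendsto_pow_atTop_nhds_zero_of_lt_one (by norm_num) (by norm_num)).mul_const _
  rw [zero_mul] at h1
  obtain ⟨N, hN⟩ := Metric.tendsto_atTop.1 h1 (ε / 4) (by positivity)
  refine ⟨N, fun j hj => ?_⟩
  have h2 := hN j hj
  rw [Real.dist_eq, sub_zero, abs_of_nonneg (by positivity)] at h2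
  have h3 : ‖w - F.J j w‖ ≤ (1 / 2 : ℝ) ^ j * ‖F.A ⟨w, hwu⟩‖ := by
    have h4 := F.JA j ⟨w, hwu⟩
    have h5 : w - F.J j w = (1 / 2 : ℝ) ^ j • F.J j (F.A ⟨w, hwu⟩) := by
      rw [h4, smul_smul, ← mul_pow]; norm_num
    rw [h5, norm_smul, Real.norm_of_nonneg (by positivity)]
    exact mul_le_mul_of_nonneg_left (F.norm_J _ _) (by positivity)
  rw [dist_eq_norm]
  have h6 : F.J j u - u = F.J j (u - w) - (w - F.J j w) + (w - u) := by
    rw [map_sub]; abel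
  rw [h6]
  calc ‖F.J j (u - w) - (w - F.J j w) + (w - u)‖ ≤ ‖F.J j (u - w)‖ + ‖w - F.J j w‖ + ‖w - u‖ :=
        (norm_add_le _ _).trans (add_le_add (norm_sub_le _ _) le_rfl)
    _ ≤ ‖w - u‖ + ‖w - F.J j w‖ + ‖w - u‖ := by
        have := F.norm_J j (u - w)
        rw [norm_sub_rev u w] at this
        linarith
    _ < ε := by linarith

/-! ### the seminorms -/

/-- `√⟨G_k u, u⟩` -/
noncomputable def nG (k : ℕ) (u : H) : ℝ := Real.sqrt ⟪F.G k u, u⟫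

theorem nG_nonneg (k : ℕ) (u : H) : 0 ≤ F.nG k u := Real.sqrt_nonneg _

theorem nG_sq (k : ℕ) (u : H) : F.nG k u ^ 2 = ⟪F.G k u, u⟫ := Real.sq_sqrt (F.Gpos k u)

theorem G_cs (k : ℕ) (u v : H) : ⟪u, F.G k v⟫ ≤ F.nG k u * F.nG k v := by
  have hu := F.nG_sq k u
  have hv := F.nG_sq k v
  have key : ⟪u, F.G k v⟫ ^ 2 ≤ ⟪F.G k u, u⟫ * ⟪F.G k v, v⟫ := by
    set a := ⟪F.G k u, u⟫
    set b := ⟪u, F.G k v⟫
    set c := ⟪F.G k v, v⟫
    have h : ∀ s : ℝ, 0 ≤ a * (s * s) + (2 * b) * s + c := by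
      intro s
      have h1 := F.Gpos k (s • u + v)
      rw [map_add, map_smul, inner_add_left, inner_add_right, inner_add_right, real_inner_smul_left,
        real_inner_smul_left, real_inner_smul_right, real_inner_smul_right] at h1
      have h2 : ⟪F.G k u, v⟫ = b := F.Gsymm k u v
      have h3 : ⟪F.G k v, u⟫ = b := by rw [real_inner_comm]
      rw [h2, h3] at h1
      linarith
    have h4 := discrim_le_zero h
    rw [discrim] at h4
    nlinarith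
  rw [← hu, ← hv, ← mul_pow] at key
  exact (le_abs_self _).trans
    (abs_le_of_sq_le_sq key (mul_nonneg (F.nG_nonneg k u) (F.nG_nonneg k v)))

theorem G_cs_abs (k : ℕ) (u v : H) : |⟪u, F.G k v⟫| ≤ F.nG k u * F.nG k v := by
  refine abs_le.2 ⟨?_, F.G_cs k u v⟩
  have h := F.G_cs k (-u) v
  have h2 : F.nG k (-u) = F.nG k u := by unfold nG; simp
  rw [h2, inner_neg_left] at h
  linarith

theorem nG_add (k : ℕ) (u v : H) : F.nG k (u + v) ≤ F.nG k u + F.nG k v := by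
  refine (sq_le_sq₀ (F.nG_nonneg k _) (add_nonneg (F.nG_nonneg k _) (F.nG_nonneg k _))).1 ?_
  rw [F.nG_sq, map_add, inner_add_left, inner_add_right, inner_add_right]
  have h1 := F.G_cs k u v
  have h2 : ⟪F.G k u, v⟫ = ⟪u, F.G k v⟫ := F.Gsymm k u v
  have h3 : ⟪F.G k v, u⟫ = ⟪u, F.G k v⟫ := by rw [real_inner_comm]
  have h4 := F.nG_sq k u
  have h5 := F.nG_sq k v
  rw [h2, h3]
  nlinarith

theorem nG_smul (k : ℕ) (c : ℝ) (u : H) : F.nG k (c • u) = |c| * F.nG k u := by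
  unfold nG
  rw [map_smul, real_inner_smul_left, real_inner_smul_right, ← mul_assoc, Real.sqrt_mul (mul_self_nonneg c),
    Real.sqrt_mul_self_eq_abs]

theorem nG_neg (k : ℕ) (u : H) : F.nG k (-u) = F.nG k u := by
  unfold nG; simp

theorem nG_sub (k : ℕ) (u v : H) : F.nG k (u - v) ≤ F.nG k u + F.nG k v := by
  rw [sub_eq_add_neg, ← F.nG_neg k v]
  exact F.nG_add k u (-v)

theorem nG_le (k : ℕ) (u : H) : F.nG k u ≤ F.M * ‖u‖ := by
  have hM := F.M1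
  refine (sq_le_sq₀ (F.nG_nonneg k _) (by positivity)).1 ?_
  rw [F.nG_sq]
  refine (F.Gle k u).trans ?_
  rw [mul_pow]
  have : F.M ≤ F.M ^ 2 := by nlinarith
  exact mul_le_mul_of_nonneg_right this (by positivity)

theorem nG_sum (k : ℕ) {ι : Type*} (s : Finset ι) (f : ι → H) :
    F.nG k (∑ i ∈ s, f i) ≤ ∑ i ∈ s, F.nG k (f i) := by
  classical
  induction s using Finset.induction_on with
  | empty => simp [nG]
  | insert a s ha ih =>
    rw [Finset.sum_insert ha, Finset.sum_insert ha]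
    exact (F.nG_add k _ _).trans (add_le_add le_rfl ih)

/-- passing to the limit in `nG` -/
theorem nG_lim (k : ℕ) {f : ℕ → H} {u : H} (hf : Tendsto f atTop (𝓝 u)) {B : ℝ}
    (hB : ∀ N, F.nG k (f N) ≤ B) : F.nG k u ≤ B := by
  have h1 : ∀ N, F.nG k u ≤ F.M * ‖u - f N‖ + B := by
    intro N
    have h2 : u = (u - f N) + f N := by abel
    calc F.nG k u = F.nG k ((u - f N) + f N) := by rw [← h2]
      _ ≤ F.nG k (u - f N) + F.nG k (f N) := F.nG_add k _ _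
      _ ≤ F.M * ‖u - f N‖ + B := add_le_add (F.nG_le k _) (hB N)
  have h3 : Tendsto (fun N => F.M * ‖u - f N‖ + B) atTop (𝓝 (F.M * ‖u - u‖ + B)) :=
    ((tendsto_const_nhds.sub hf).norm.const_mul _).add_const _
  rw [sub_self, norm_zero, mul_zero, zero_add] at h3
  exact ge_of_tendsto' h3 h1

/-- the weight -/
noncomputable def ph (k j : ℕ) : ℝ := max 1 (Real.sqrt (144 * 2 ^ j / k))

theorem ph_one (k j : ℕ) : 1 ≤ ph k j := le_max_left _ _

theorem ph_nonneg (k j : ℕ) : 0 ≤ ph k j := zero_le_one.trans (ph_one k j)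

theorem ph_shift (k j l : ℕ) : ph k (j + l) ≤ Real.sqrt 2 ^ l * ph k j := by
  have h1 : (1 : ℝ) ≤ Real.sqrt 2 ^ l := one_le_pow₀ (by
    rw [Real.one_le_sqrt]; norm_num)
  refine max_le ?_ ?_
  · nlinarith [ph_one k j]
  · have h2 : Real.sqrt (144 * 2 ^ (j + l) / k) = Real.sqrt 2 ^ l * Real.sqrt (144 * 2 ^ j / k) := by
      have h3 : Real.sqrt 2 ^ l = Real.sqrt (2 ^ l) := by
        rw [Real.sqrt_eq_rpow, Real.sqrt_eq_rpow, ← Real.rpow_natCast, ← Real.rpow_mul (by norm_num),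
          ← Real.rpow_natCast, ← Real.rpow_mul (by norm_num)]
        ring_nf
      rw [h3, ← Real.sqrt_mul (by positivity)]
      congr 1
      rw [pow_add]; ring
    rw [h2]
    exact mul_le_mul_of_nonneg_left (le_max_right _ _) (by positivity)

/-- the bootstrap property -/
def P (y : ℝ) : Prop := ∀ k j u, 1 ≤ k → F.nG k (F.J j (F.J j u)) ≤ y ^ 2 * ph k j * ‖u‖

theorem piece1 (j i : ℕ) (u : H) : F.J j (F.J (j + i + 1) u) - F.J j (F.J (j + i) u) =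
    ((1 / 2 : ℝ) * (1 / 2) ^ i) • F.J (j + i) (F.J (j + i + 1) (u - F.J j u)) := by
  have h1 := congrArg (F.J j) (F.diff (j + i) u)
  rw [map_sub, map_smul, map_sub] at h1
  rw [h1]
  have h2 := F.two j (j + i) (F.J (j + i + 1) u)
  have h3 : F.J j (F.J (j + i + 1) u) - F.J j (F.J (j + i) (F.J (j + i + 1) u)) =
      ((1 / 2 : ℝ) ^ i) • (F.J (j + i) (F.J (j + i + 1) u) - F.J j (F.J (j + i) (F.J (j + i + 1) u))) := by
    have h4 : (2 : ℝ) ^ (j + i) ≠ 0 := by positivity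
    refine smul_right_injective H h4 ?_
    simp only
    rw [h2, smul_smul]
    congr 1
    rw [pow_add, mul_assoc, ← mul_pow]
    norm_num
  rw [h3, smul_smul]
  congr 1
  rw [map_sub, map_sub, F.comm (j + i + 1) j u, F.comm (j + i) j]

theorem nG_mixed {y : ℝ} (hP : F.P y) {k m : ℕ} (hk : 1 ≤ k) (w : H) :
    F.nG k (F.J m (F.J (m + 1) w)) ≤ y ^ 2 * ph k (m + 1) * ‖w‖ := by
  rw [F.mixed]
  refine (hP k (m + 1) _ hk).trans ?_
  refine mul_le_mul_of_nonneg_left ?_ (mul_nonneg (sq_nonneg _) (ph_nonneg _ _))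
  rw [norm_smul, Real.norm_of_nonneg (by norm_num)]
  have := norm_add_le w (F.J m w)
  have := F.norm_J m w
  linarith

theorem one_part {y : ℝ} (hP : F.P y) {k : ℕ} (hk : 1 ≤ k) (j : ℕ) (u : H) (N : ℕ) :
    F.nG k (F.J j (F.J (j + N) u)) ≤
      y ^ 2 * ph k j * ‖u‖ * ∑ i ∈ Finset.range (N + 1), (Real.sqrt 2 / 2) ^ i := by
  induction N with
  | zero => simpa using hP k j u hk
  | succ N ih =>
    have h1 : F.J j (F.J (j + (N + 1)) u) = F.J j (F.J (j + N) u) +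
        (F.J j (F.J (j + N + 1) u) - F.J j (F.J (j + N) u)) := by
      rw [← add_assoc]; abel
    rw [h1, F.piece1 j N u, Finset.sum_range_succ, mul_add]
    refine (F.nG_add k _ _).trans (add_le_add ih ?_)
    rw [F.nG_smul, abs_of_nonneg (by positivity)]
    have h2 := F.nG_mixed hP hk (m := j + N) (u - F.J j u)
    have h3 := F.norm_sub_J j u
    have h4 : ph k (j + N + 1) ≤ Real.sqrt 2 ^ (N + 1) * ph k j := by
      have := ph_shift k j (N + 1)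
      rwa [← add_assoc] at this
    have hy := sq_nonneg y
    calc (1 / 2 : ℝ) * (1 / 2) ^ N * F.nG k (F.J (j + N) (F.J (j + N + 1) (u - F.J j u)))
        ≤ (1 / 2 : ℝ) * (1 / 2) ^ N * (y ^ 2 * (Real.sqrt 2 ^ (N + 1) * ph k j) * ‖u‖) := by
          refine mul_le_mul_of_nonneg_left (h2.trans ?_) (by positivity)
          refine mul_le_mul (mul_le_mul_of_nonneg_left h4 hy) h3 (norm_nonneg _) ?_
          have := ph_nonneg k j
          positivity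
      _ = y ^ 2 * ph k j * ‖u‖ * (Real.sqrt 2 / 2) ^ (N + 1) := by
          have : (1 / 2 : ℝ) * (1 / 2) ^ N = 1 / 2 ^ (N + 1) := by
            rw [one_div_pow, pow_succ]; field_simp
          rw [this, div_pow]; field_simp

theorem geo_bound (N : ℕ) : ∑ i ∈ Finset.range N, (Real.sqrt 2 / 2) ^ i ≤ 7 / 2 := by
  have h2 : Real.sqrt 2 < 10 / 7 := by
    rw [Real.sqrt_lt' (by norm_num)]; norm_num
  have h0 : 0 ≤ Real.sqrt 2 / 2 := by positivity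
  have h1 : Real.sqrt 2 / 2 < 1 := by linarith
  have h3 : ∑ i ∈ Finset.range N, (Real.sqrt 2 / 2) ^ i ≤ (1 - Real.sqrt 2 / 2)⁻¹ := by
    rw [geom_sum_eq h1.ne]
    rw [← neg_div_neg_eq, div_eq_mul_inv, neg_sub, neg_sub]
    have : 0 < (1 - Real.sqrt 2 / 2)⁻¹ := inv_pos.2 (by linarith)
    have h4 : 0 ≤ (Real.sqrt 2 / 2) ^ N := by positivity
    nlinarith
  refine h3.trans ?_
  rw [inv_le_comm₀ (by linarith) (by norm_num)]
  linarith

theorem one_res {y : ℝ} (hP : F.P y) {k : ℕ} (hk : 1 ≤ k) (j : ℕ) (u : H) :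
    F.nG k (F.J j u) ≤ 7 / 2 * y ^ 2 * ph k j * ‖u‖ := by
  have h1 : Tendsto (fun N => F.J (j + N) (F.J j u)) atTop (𝓝 (F.J j u)) :=
    (F.lim (F.J j u)).comp (tendsto_atTop_mono (fun N => Nat.le_add_left N j) tendsto_id)
  refine F.nG_lim k h1 fun N => ?_
  rw [← F.comm]
  refine (F.one_part hP hk j u N).trans ?_
  have h2 := geo_bound (N + 1)
  have h3 : 0 ≤ y ^ 2 * ph k j * ‖u‖ := by
    have := ph_nonneg k j
    positivity
  nlinarith

/-- real inequality of the step -/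
theorem quart {a b δ : ℝ} (ha : 0 ≤ a) (hb : 0 ≤ b) (hδ : 0 ≤ δ) (h : a ^ 4 ≤ b ^ 4 + 4 * δ * b ^ 3) :
    a ≤ b + δ := by
  by_contra hcon
  push Not at hcon
  have h1 : (b + δ) ^ 4 < a ^ 4 := pow_lt_pow_left₀ hcon (by positivity) (by norm_num)
  have h2 : b ^ 4 + 4 * δ * b ^ 3 ≤ (b + δ) ^ 4 := by
    have : (b + δ) ^ 4 = b ^ 4 + 4 * δ * b ^ 3 + (6 * b ^ 2 * δ ^ 2 + 4 * b * δ ^ 3 + δ ^ 4) := by ring
    rw [this]
    have : 0 ≤ 6 * b ^ 2 * δ ^ 2 + 4 * b * δ ^ 3 + δ ^ 4 := by positivity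
    linarith
  linarith

/-- one step of the descent in `k` -/
theorem stepB (k : ℕ) (w : F.D) {R : ℝ} (hR : 0 ≤ R) (hA : F.nG (k + 1) (F.A w) ≤ R ^ 2) :
    Real.sqrt (F.nG k w) ≤ Real.sqrt (F.nG (k + 1) w)
      + 3 / 2 * R / (((k : ℝ) + 1) * Real.sqrt ((k : ℝ) + 1)) := by
  set z := Real.sqrt (F.nG (k + 1) (w : H)) with hz
  have hz0 : 0 ≤ z := Real.sqrt_nonneg _
  have hz2 : z ^ 2 = F.nG (k + 1) w := Real.sq_sqrt (F.nG_nonneg _ _)
  set z' := Real.sqrt (F.nG k (w : H)) with hz'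
  have hz'0 : 0 ≤ z' := Real.sqrt_nonneg _
  have hz'2 : z' ^ 2 = F.nG k w := Real.sq_sqrt (F.nG_nonneg _ _)
  have hq : z ^ 4 = ⟪F.G (k + 1) (w : H), (w : H)⟫ := by
    rw [← F.nG_sq, ← hz2]; ring
  have hq' : z' ^ 4 = ⟪F.G k (w : H), (w : H)⟫ := by
    rw [← F.nG_sq, ← hz'2]; ring
  have hk : (0 : ℝ) < (k : ℝ) + 1 := by positivity
  set X := ⟪F.A w, F.G (k + 1) (w : H)⟫ - F.d (k + 1) w w with hX
  have hst := F.step k w
  rw [← hq, ← hq', ← hX] at hst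
  have hs : 0 < Real.sqrt ((k : ℝ) + 1) := Real.sqrt_pos.2 hk
  have hss : Real.sqrt ((k : ℝ) + 1) ^ 2 = (k : ℝ) + 1 := Real.sq_sqrt hk.le
  refine quart hz'0 hz0 (by positivity) ?_
  rw [hst]
  rcases le_or_gt X 0 with h0 | h0
  · have h1 : 2 / ((k : ℝ) + 1) * X ≤ 0 := mul_nonpos_of_nonneg_of_nonpos (by positivity) h0
    have h2 : 0 ≤ 4 * (3 / 2 * R / (((k : ℝ) + 1) * Real.sqrt ((k : ℝ) + 1))) * z ^ 3 := by positivity
    linarith
  · have hcs := F.cs k w w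
    rw [← hX, ← hq] at hcs
    have hd : F.d (k + 1) w w ≤ R ^ 2 * z ^ 2 := by
      have h1 := F.G_cs (k + 1) (F.A w) w
      have h2 : F.nG (k + 1) (F.A w) * F.nG (k + 1) (w : H) ≤ R ^ 2 * z ^ 2 := by
        rw [hz2]
        exact mul_le_mul_of_nonneg_right hA (F.nG_nonneg _ _)
      have h3 : F.d (k + 1) w w = ⟪F.A w, F.G (k + 1) (w : H)⟫ - X := by rw [hX]; ring
      linarith
    have h4 : X ^ 2 ≤ (3 * R * z ^ 3 / Real.sqrt ((k : ℝ) + 1)) ^ 2 := by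
      calc X ^ 2 ≤ 9 / ((k : ℝ) + 1) * F.d (k + 1) w w * z ^ 4 := hcs
        _ ≤ 9 / ((k : ℝ) + 1) * (R ^ 2 * z ^ 2) * z ^ 4 := by gcongr
        _ = _ := by
            rw [div_pow, hss]; ring
    have h5 : X ≤ 3 * R * z ^ 3 / Real.sqrt ((k : ℝ) + 1) :=
      (le_abs_self X).trans (abs_le_of_sq_le_sq h4 (by positivity))
    have h6 : 2 / ((k : ℝ) + 1) * X ≤ 2 / ((k : ℝ) + 1) * (3 * R * z ^ 3 / Real.sqrt ((k : ℝ) + 1)) :=
      mul_le_mul_of_nonneg_left h5 (by positivity)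
    have h7 : 2 / ((k : ℝ) + 1) * (3 * R * z ^ 3 / Real.sqrt ((k : ℝ) + 1)) =
        4 * (3 / 2 * R / (((k : ℝ) + 1) * Real.sqrt ((k : ℝ) + 1))) * z ^ 3 := by
      field_simp
      ring
    linarith

theorem sum_step {k : ℕ} (hk : 1 ≤ k) :
    1 / (((k : ℝ) + 1) * Real.sqrt ((k : ℝ) + 1)) ≤ 2 * (1 / Real.sqrt k - 1 / Real.sqrt ((k : ℝ) + 1)) := by
  have hk0 : (0 : ℝ) < k := by exact_mod_cast hk
  set a := Real.sqrt (k : ℝ) with ha
  set b := Real.sqrt ((k : ℝ) + 1) with hb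
  have ha0 : 0 < a := Real.sqrt_pos.2 hk0
  have hb0 : 0 < b := Real.sqrt_pos.2 (by positivity)
  have ha2 : a ^ 2 = k := Real.sq_sqrt hk0.le
  have hb2 : b ^ 2 = (k : ℝ) + 1 := Real.sq_sqrt (by positivity)
  have hab : a ≤ b := Real.sqrt_le_sqrt (by linarith)
  rw [← hb2]
  have h1 : 2 * (1 / a - 1 / b) - 1 / (b ^ 2 * b) = (2 * b ^ 2 * (b - a) - a) / (a * b ^ 3) := by
    field_simp
  have h2 : 0 ≤ (2 * b ^ 2 * (b - a) - a) / (a * b ^ 3) := by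
    refine div_nonneg ?_ (by positivity)
    have h3 : (b - a) * (b + a) = 1 := by nlinarith
    have h4 : 0 ≤ b - a := by linarith
    -- `2 b² (b-a) ≥ b (b+a)(b-a) = b ≥ a`
    nlinarith [mul_nonneg hb0.le h4, mul_nonneg h4 h4, mul_nonneg (mul_nonneg hb0.le h4) h4]
  linarith

theorem nG_tendsto (w : H) : Tendsto (fun k => F.nG k w) atTop (𝓝 ‖w‖) := by
  have h1 := (Real.continuous_sqrt.tendsto _).comp (F.Glim w)
  rw [Real.sqrt_sq (norm_nonneg _)] at h1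
  exact h1

/-- the descent from infinity -/
theorem descent (w : F.D) {R : ℝ} (hR : 0 ≤ R) {k0 : ℕ} (hk0 : 1 ≤ k0)
    (hA : ∀ k, k0 ≤ k → F.nG k (F.A w) ≤ R ^ 2) {k : ℕ} (hk : k0 ≤ k) :
    Real.sqrt (F.nG k w) ≤ Real.sqrt ‖(w : H)‖ + 3 * R / Real.sqrt k := by
  set g : ℕ → ℝ := fun m => Real.sqrt (F.nG m w) - 3 * R / Real.sqrt m with hg
  have hmono : ∀ m, k0 ≤ m → g m ≤ g (m + 1) := by
    intro m hm
    have h1 := F.stepB m w hR (hA (m + 1) (by omega))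
    have h2 := sum_step (hk0.trans hm)
    simp only [hg]
    push_cast
    have h3 : 3 / 2 * R / (((m : ℝ) + 1) * Real.sqrt ((m : ℝ) + 1)) =
        3 / 2 * R * (1 / (((m : ℝ) + 1) * Real.sqrt ((m : ℝ) + 1))) := by ring
    have h4 : 3 / 2 * R * (1 / (((m : ℝ) + 1) * Real.sqrt ((m : ℝ) + 1))) ≤
        3 / 2 * R * (2 * (1 / Real.sqrt m - 1 / Real.sqrt ((m : ℝ) + 1))) :=
      mul_le_mul_of_nonneg_left h2 (by positivity)
    have h5 : 3 / 2 * R * (2 * (1 / Real.sqrt m - 1 / Real.sqrt ((m : ℝ) + 1))) =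
        3 * R / Real.sqrt m - 3 * R / Real.sqrt ((m : ℝ) + 1) := by ring
    linarith
  have hmono2 : ∀ l, g k ≤ g (k + l) := by
    intro l
    induction l with
    | zero => simp
    | succ l ih => exact ih.trans (hmono (k + l) (by omega))
  have hlim : Tendsto (fun l => g (k + l)) atTop (𝓝 (Real.sqrt ‖(w : H)‖ - 0)) := by
    have h1 : Tendsto (fun m => Real.sqrt (F.nG m w)) atTop (𝓝 (Real.sqrt ‖(w : H)‖)) :=
      (Real.continuous_sqrt.tendsto _).comp (F.nG_tendsto w)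
    have h2 : Tendsto (fun m : ℕ => 3 * R / Real.sqrt m) atTop (𝓝 0) :=
      tendsto_const_nhds.div_atTop (Real.tendsto_sqrt_atTop.comp tendsto_natCast_atTop_atTop)
    exact (h1.sub h2).comp (tendsto_atTop_mono (fun l => Nat.le_add_left l k) tendsto_id)
  have h := ge_of_tendsto' hlim hmono2
  simp only [hg, sub_zero] at h
  linarith

/-- `(k+1) q_k` is non-decreasing -/
theorem q_mono {k m : ℕ} (hkm : k ≤ m) (w : H) :
    ((k : ℝ) + 1) * ⟪F.G k w, w⟫ ≤ ((m : ℝ) + 1) * ⟪F.G m w, w⟫ := by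
  have : Monotone fun k : ℕ => ((k : ℝ) + 1) * ⟪F.G k w, w⟫ := by
    refine monotone_nat_of_le_succ fun k => ?_
    have h1 := F.Gmono k w
    have h2 : (0 : ℝ) < (k : ℝ) + 1 := by positivity
    have h3 := mul_le_mul_of_nonneg_left h1 h2.le
    have h4 : ((k : ℝ) + 1) * ((1 + 1 / ((k : ℝ) + 1)) * ⟪F.G (k + 1) w, w⟫) =
        (((k + 1 : ℕ) : ℝ) + 1) * ⟪F.G (k + 1) w, w⟫ := by
      push_cast
      field_simp
    linarith
  exact this hkm

theorem boot {y : ℝ} (hy : 0 ≤ y) (hP : F.P y) : F.P (1 + y / 2) := by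
  intro k j u hk
  set K : ℕ := 144 * 2 ^ j with hK
  have hK1 : 1 ≤ K := by
    have : 1 ≤ 2 ^ j := Nat.one_le_two_pow
    omega
  have hKr : (K : ℝ) = 144 * 2 ^ j := by rw [hK]; push_cast; ring
  set w : F.D := ⟨F.J j (F.J j u), F.memD j _⟩ with hw
  -- large `k`
  have hbig : ∀ k, K ≤ k → F.nG k (w : H) ≤ (1 + y / 2) ^ 2 * ‖u‖ := by
    intro k hk
    set R : ℝ := Real.sqrt (7 / 2 * 2 ^ j * ‖u‖) * y with hR
    have hR0 : 0 ≤ R := by positivity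
    have hR2 : R ^ 2 = 7 / 2 * 2 ^ j * ‖u‖ * y ^ 2 := by
      rw [hR, mul_pow, Real.sq_sqrt (by positivity)]
    have hA : ∀ k, K ≤ k → F.nG k (F.A w) ≤ R ^ 2 := by
      intro k hk
      have hk1 : 1 ≤ k := hK1.trans hk
      have hkr : (0 : ℝ) < k := by exact_mod_cast hk1
      have hph : ph k j = 1 := by
        refine max_eq_left ?_
        rw [Real.sqrt_le_one, div_le_one hkr, ← hKr]
        exact_mod_cast hk
      rw [hw, F.AJ, F.nG_smul, abs_of_nonneg (by positivity)]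
      have h1 : F.J j u - F.J j (F.J j u) = F.J j (u - F.J j u) := by rw [map_sub]
      rw [h1]
      have h2 := F.one_res hP hk1 j (u - F.J j u)
      rw [hph] at h2
      have h3 := F.norm_sub_J j u
      rw [hR2]
      calc (2 : ℝ) ^ j * F.nG k (F.J j (u - F.J j u)) ≤ 2 ^ j * (7 / 2 * y ^ 2 * 1 * ‖u - F.J j u‖) :=
            mul_le_mul_of_nonneg_left h2 (by positivity)
        _ ≤ 2 ^ j * (7 / 2 * y ^ 2 * 1 * ‖u‖) := by gcongr
        _ = _ := by ring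
    have h1 := F.descent w hR0 hK1 hA hk
    have hkr : (K : ℝ) ≤ k := by exact_mod_cast hk
    have hk0 : (0 : ℝ) < K := by exact_mod_cast hK1
    have hw1 : Real.sqrt ‖(w : H)‖ ≤ Real.sqrt ‖u‖ :=
      Real.sqrt_le_sqrt ((F.norm_J j _).trans (F.norm_J j _))
    have h2 : 3 * R / Real.sqrt k ≤ y / 2 * Real.sqrt ‖u‖ := by
      have h3 : 3 * R / Real.sqrt k ≤ 3 * R / Real.sqrt K :=
        div_le_div_of_nonneg_left (by positivity) (Real.sqrt_pos.2 hk0) (Real.sqrt_le_sqrt hkr)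
      refine h3.trans ?_
      rw [div_le_iff₀ (Real.sqrt_pos.2 hk0), hR, hKr]
      have h4 : Real.sqrt (7 / 2 * 2 ^ j * ‖u‖) = Real.sqrt (7 / 2) * Real.sqrt (2 ^ j) * Real.sqrt ‖u‖ := by
        rw [Real.sqrt_mul (by positivity), Real.sqrt_mul (by positivity)]
      have h5 : Real.sqrt (144 * 2 ^ j : ℝ) = 12 * Real.sqrt (2 ^ j) := by
        rw [Real.sqrt_mul (by positivity)]
        congr 1
        rw [Real.sqrt_eq_iff_mul_self_eq (by norm_num) (by norm_num)]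
        norm_num
      rw [h4, h5]
      have h6 : Real.sqrt (7 / 2) ≤ 2 := by
        rw [Real.sqrt_le_left (by norm_num)]; norm_num
      have h7 : 0 ≤ Real.sqrt ((2 : ℝ) ^ j) * Real.sqrt ‖u‖ * y := by positivity
      nlinarith
    have h8 : Real.sqrt (F.nG k (w : H)) ≤ (1 + y / 2) * Real.sqrt ‖u‖ := by linarith
    have h9 := pow_le_pow_left₀ (Real.sqrt_nonneg _) h8 2
    rwa [Real.sq_sqrt (F.nG_nonneg _ _), mul_pow, Real.sq_sqrt (norm_nonneg _)] at h9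
  rcases le_total K k with hkK | hkK
  · refine (hbig k hkK).trans ?_
    have h1 := ph_one k j
    have h2 : 0 ≤ (1 + y / 2) ^ 2 * ‖u‖ := by positivity
    nlinarith
  · have h1 := F.q_mono hkK (w : H)
    rw [← F.nG_sq, ← F.nG_sq] at h1
    have h2 := hbig K le_rfl
    have hk0 : (0 : ℝ) < k := by exact_mod_cast hk
    have hkr : (k : ℝ) ≤ K := by exact_mod_cast hkK
    have h3 : F.nG k (w : H) ^ 2 ≤ (Real.sqrt (144 * 2 ^ j / k) * F.nG K (w : H)) ^ 2 := by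
      rw [mul_pow, Real.sq_sqrt (by positivity), ← hKr]
      have h4 : ((K : ℝ) + 1) / ((k : ℝ) + 1) ≤ K / k := by
        rw [div_le_div_iff₀ (by positivity) hk0]
        nlinarith
      have h5 : F.nG k (w : H) ^ 2 ≤ ((K : ℝ) + 1) / ((k : ℝ) + 1) * F.nG K (w : H) ^ 2 := by
        rw [div_mul_eq_mul_div, le_div_iff₀ (by positivity)]
        linarith
      exact h5.trans (mul_le_mul_of_nonneg_right h4 (sq_nonneg _))
    have h6 : F.nG k (w : H) ≤ Real.sqrt (144 * 2 ^ j / k) * F.nG K (w : H) :=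
      (sq_le_sq₀ (F.nG_nonneg _ _) (mul_nonneg (Real.sqrt_nonneg _) (F.nG_nonneg _ _))).1 h3
    calc F.nG k (F.J j (F.J j u)) = F.nG k (w : H) := rfl
      _ ≤ Real.sqrt (144 * 2 ^ j / k) * F.nG K (w : H) := h6
      _ ≤ ph k j * ((1 + y / 2) ^ 2 * ‖u‖) :=
          mul_le_mul (le_max_right _ _) h2 (F.nG_nonneg _ _) (ph_nonneg _ _)
      _ = _ := by ring

theorem P_start : F.P (F.M + 2) := by
  intro k j u hk
  have hM := F.M1
  have h1 := F.nG_le k (F.J j (F.J j u))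
  have h2 : ‖F.J j (F.J j u)‖ ≤ ‖u‖ := (F.norm_J j _).trans (F.norm_J j _)
  have h3 := ph_one k j
  calc F.nG k (F.J j (F.J j u)) ≤ F.M * ‖F.J j (F.J j u)‖ := h1
    _ ≤ F.M * ‖u‖ := mul_le_mul_of_nonneg_left h2 (by linarith)
    _ ≤ (F.M + 2) ^ 2 * 1 * ‖u‖ := by
        refine mul_le_mul_of_nonneg_right ?_ (norm_nonneg _)
        nlinarith
    _ ≤ (F.M + 2) ^ 2 * ph k j * ‖u‖ := by gcongr

theorem P_iter (i : ℕ) : F.P (2 + (1 / 2) ^ i * F.M) := by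
  have hM := F.M1
  induction i with
  | zero =>
    have := F.P_start
    rw [add_comm] at this
    simpa using this
  | succ i ih =>
    have h := F.boot (by positivity) ih
    have e : 1 + (2 + (1 / 2) ^ i * F.M) / 2 = 2 + (1 / 2) ^ (i + 1) * F.M := by
      rw [pow_succ]; ring
    rwa [e] at h

/-- **(B)** with absolute constants -/
theorem P_two {k j : ℕ} (hk : 1 ≤ k) (u : H) : F.nG k (F.J j (F.J j u)) ≤ 4 * ph k j * ‖u‖ := by
  have h1 : Tendsto (fun i : ℕ => (2 + (1 / 2 : ℝ) ^ i * F.M) ^ 2 * ph k j * ‖u‖) atTop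
      (𝓝 ((2 + 0 * F.M) ^ 2 * ph k j * ‖u‖)) :=
    ((((tendsto_pow_atTop_nhds_zero_of_lt_one (by norm_num) (by norm_num)).mul_const _).const_add
      2).pow 2 |>.mul_const _).mul_const _
  have h2 := ge_of_tendsto' h1 fun i => F.P_iter i k j u hk
  norm_num at h2
  exact h2

/-! ### (K) -/

/-- elements of the domain -/
def JD (j : ℕ) (u : H) : F.D := ⟨F.J j u, F.memD j u⟩

@[simp] theorem coe_JD (j : ℕ) (u : H) : ((F.JD j u : F.D) : H) = F.J j u := rfl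

theorem A_JD (j : ℕ) (u : H) : F.A (F.JD j u) = (2 : ℝ) ^ j • (u - F.J j u) := F.AJ j u

theorem A_JD' (j : ℕ) (w : F.D) : F.A (F.JD j w) = F.J j (F.A w) := by
  rw [F.A_JD, F.JA]

theorem A_JJ (j m : ℕ) (w : F.D) : F.A (F.JD j (F.J m w)) = F.J j (F.J m (F.A w)) := by
  rw [F.A_JD, F.comm j m (F.A w), F.JA j w, map_smul, map_sub, F.comm j m]

theorem A_JJJ (j m l : ℕ) (w : F.D) :
    F.A (F.JD j (F.J m (F.J l w))) = F.J j (F.J m (F.J l (F.A w))) := by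
  have h := F.A_JJ j m (F.JD l w)
  rw [F.A_JD'] at h
  exact h

theorem sqrt_pow_succ (j : ℕ) : Real.sqrt ((2 : ℝ) ^ (j + 1)) = Real.sqrt 2 * Real.sqrt (2 ^ j) := by
  rw [pow_succ, mul_comm, Real.sqrt_mul (by norm_num)]

theorem n_two (j : ℕ) (u : H) : F.nG 1 (F.J j (F.J j u)) ≤ 48 * Real.sqrt (2 ^ j) * ‖u‖ := by
  refine (F.P_two le_rfl u).trans ?_
  have h1 : ph 1 j ≤ 12 * Real.sqrt (2 ^ j) := by
    have h5 : Real.sqrt (144 * 2 ^ j / ((1 : ℕ) : ℝ)) = 12 * Real.sqrt (2 ^ j) := by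
      rw [Nat.cast_one, div_one, Real.sqrt_mul (by positivity)]
      congr 1
      rw [Real.sqrt_eq_iff_mul_self_eq (by norm_num) (by norm_num)]
      norm_num
    unfold ph
    rw [h5]
    refine max_le ?_ le_rfl
    have : (1 : ℝ) ≤ Real.sqrt (2 ^ j) := by
      rw [Real.one_le_sqrt]; exact one_le_pow₀ (by norm_num)
    linarith
  have h2 := norm_nonneg u
  nlinarith

theorem n_mix (j : ℕ) (u : H) :
    F.nG 1 (F.J j (F.J (j + 1) u)) ≤ 48 * Real.sqrt (2 ^ (j + 1)) * ‖u‖ := by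
  rw [F.mixed]
  refine (F.n_two (j + 1) _).trans ?_
  refine mul_le_mul_of_nonneg_left ?_ (by positivity)
  rw [norm_smul, Real.norm_of_nonneg (by norm_num)]
  have := norm_add_le u (F.J j u)
  have := F.norm_J j u
  linarith

/-- `Ψ_j` -/
def PsD (j : ℕ) (x : H) : F.D := F.JD (j + 1) (F.J (j + 1) x) + F.JD (j + 1) (F.J j x) + F.JD j (F.J j x)

/-- `Θ_j` -/
noncomputable def ThD (j : ℕ) (v : H) : F.D := F.JD j v + F.JD j (F.J j v) + F.JD j (F.J j (F.J j v)) +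
  (1 / 2 : ℝ) • (F.JD (j + 1) v + F.JD (j + 1) (F.J (j + 1) v) + F.JD (j + 1) (F.J (j + 1) (F.J (j + 1) v)))

theorem sqrt2_le : Real.sqrt 2 ≤ 17 / 12 := by
  rw [Real.sqrt_le_left (by norm_num)]; norm_num

theorem n_Ps (j : ℕ) (x : H) : F.nG 1 (F.PsD j x : H) ≤ 204 * Real.sqrt (2 ^ j) * ‖x‖ := by
  have e : (F.PsD j x : H) = F.J (j + 1) (F.J (j + 1) x) + F.J j (F.J (j + 1) x) + F.J j (F.J j x) := by
    simp only [PsD, Submodule.coe_add, coe_JD, F.comm (j + 1) j]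
  rw [e]
  have h1 := F.n_two (j + 1) x
  have h2 := F.n_mix j x
  have h3 := F.n_two j x
  rw [sqrt_pow_succ] at h1 h2
  have h4 := F.nG_add 1 (F.J (j + 1) (F.J (j + 1) x) + F.J j (F.J (j + 1) x)) (F.J j (F.J j x))
  have h5 := F.nG_add 1 (F.J (j + 1) (F.J (j + 1) x)) (F.J j (F.J (j + 1) x))
  have h6 : 0 ≤ Real.sqrt ((2 : ℝ) ^ j) * ‖x‖ := by positivity
  have h7 := mul_le_mul_of_nonneg_right sqrt2_le h6
  nlinarith

theorem norm_JJ (i j : ℕ) (v : H) : ‖F.J i (F.J j v)‖ ≤ ‖v‖ := (F.norm_J i _).trans (F.norm_J j v)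

theorem norm_JJJ (i j l : ℕ) (v : H) : ‖F.J i (F.J j (F.J l v))‖ ≤ ‖v‖ :=
  (F.norm_JJ i j _).trans (F.norm_J l v)

theorem norm_Th (j : ℕ) (v : H) : ‖(F.ThD j v : H)‖ ≤ 9 / 2 * ‖v‖ := by
  have h1 := F.norm_J j v
  have h2 := F.norm_JJ j j v
  have h3 := F.norm_JJJ j j j v
  have h4 := F.norm_J (j + 1) v
  have h5 := F.norm_JJ (j + 1) (j + 1) v
  have h6 := F.norm_JJJ (j + 1) (j + 1) (j + 1) v
  simp only [ThD, Submodule.coe_add, Submodule.coe_smul, coe_JD]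
  have h7 := norm_add_le (F.J j v + F.J j (F.J j v) + F.J j (F.J j (F.J j v)))
    ((1 / 2 : ℝ) • (F.J (j + 1) v + F.J (j + 1) (F.J (j + 1) v) + F.J (j + 1) (F.J (j + 1) (F.J (j + 1) v))))
  rw [norm_smul, Real.norm_of_nonneg (by norm_num)] at h7
  have h8 := norm_add₃_le (a := F.J j v) (b := F.J j (F.J j v)) (c := F.J j (F.J j (F.J j v)))
  have h9 := norm_add₃_le (a := F.J (j + 1) v) (b := F.J (j + 1) (F.J (j + 1) v))
    (c := F.J (j + 1) (F.J (j + 1) (F.J (j + 1) v)))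
  linarith

theorem A_Th (j : ℕ) (v : H) : F.A (F.ThD j v) = (2 : ℝ) ^ j •
    ((v - F.J j (F.J j (F.J j v))) + (v - F.J (j + 1) (F.J (j + 1) (F.J (j + 1) v)))) := by
  simp only [ThD, map_add, map_smul, A_JD]
  module

theorem norm_A_Th (j : ℕ) (v : H) : ‖F.A (F.ThD j v)‖ ≤ 4 * 2 ^ j * ‖v‖ := by
  rw [F.A_Th, norm_smul, Real.norm_of_nonneg (by positivity)]
  have h1 := F.norm_JJJ j j j v
  have h2 := F.norm_JJJ (j + 1) (j + 1) (j + 1) v
  have h3 := norm_add_le (v - F.J j (F.J j (F.J j v))) (v - F.J (j + 1) (F.J (j + 1) (F.J (j + 1) v)))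
  have h4 := norm_sub_le v (F.J j (F.J j (F.J j v)))
  have h5 := norm_sub_le v (F.J (j + 1) (F.J (j + 1) (F.J (j + 1) v)))
  have h6 : (0 : ℝ) < 2 ^ j := by positivity
  have h7 : ‖v - F.J j (F.J j (F.J j v)) + (v - F.J (j + 1) (F.J (j + 1) (F.J (j + 1) v)))‖ ≤ 4 * ‖v‖ := by
    linarith
  calc (2 : ℝ) ^ j * _ ≤ 2 ^ j * (4 * ‖v‖) := mul_le_mul_of_nonneg_left h7 h6.le
    _ = _ := by ring

/-- the pieces -/
noncomputable def pc (j : ℕ) (v : H) : F.D := ((1 / 2 : ℝ) * (1 / 2) ^ j) • F.PsD j (F.ThD j v)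

theorem A_pc (j : ℕ) (v : H) :
    F.A (F.pc j v) = ((1 / 2 : ℝ) * (1 / 2) ^ j) • (F.PsD j (F.A (F.ThD j v)) : H) := by
  simp only [pc, PsD, map_smul, map_add, A_JJ, Submodule.coe_add, coe_JD]

theorem half_pow_sqrt (j : ℕ) : (1 / 2 : ℝ) ^ j * Real.sqrt (2 ^ j) = 1 / Real.sqrt (2 ^ j) := by
  have h1 : (0 : ℝ) < Real.sqrt (2 ^ j) := Real.sqrt_pos.2 (by positivity)
  have h2 : Real.sqrt ((2 : ℝ) ^ j) * Real.sqrt (2 ^ j) = 2 ^ j := Real.mul_self_sqrt (by positivity)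
  rw [eq_div_iff h1.ne', mul_assoc, h2, ← mul_pow]
  norm_num

theorem n_pc (j : ℕ) (v : H) : F.nG 1 (F.pc j v : H) ≤ 460 / Real.sqrt (2 ^ j) * ‖v‖ := by
  have e : (F.pc j v : H) = ((1 / 2 : ℝ) * (1 / 2) ^ j) • (F.PsD j (F.ThD j v) : H) := rfl
  rw [e, F.nG_smul, abs_of_nonneg (by positivity)]
  have h1 := F.n_Ps j (F.ThD j v)
  have h2 := F.norm_Th j v
  have h3 : (0 : ℝ) ≤ Real.sqrt (2 ^ j) := Real.sqrt_nonneg _
  calc (1 / 2 : ℝ) * (1 / 2) ^ j * F.nG 1 (F.PsD j (F.ThD j v) : H)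
      ≤ (1 / 2 : ℝ) * (1 / 2) ^ j * (204 * Real.sqrt (2 ^ j) * (9 / 2 * ‖v‖)) := by
        refine mul_le_mul_of_nonneg_left (h1.trans ?_) (by positivity)
        exact mul_le_mul_of_nonneg_left h2 (by positivity)
    _ = 459 * ((1 / 2 : ℝ) ^ j * Real.sqrt (2 ^ j)) * ‖v‖ := by ring
    _ ≤ 460 / Real.sqrt (2 ^ j) * ‖v‖ := by
        rw [half_pow_sqrt]
        refine mul_le_mul_of_nonneg_right ?_ (norm_nonneg _)
        rw [mul_one_div]
        exact div_le_div_of_nonneg_right (by norm_num) h3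

theorem n_A_pc (j : ℕ) (v : H) : F.nG 1 (F.A (F.pc j v)) ≤ 460 * Real.sqrt (2 ^ j) * ‖v‖ := by
  rw [F.A_pc, F.nG_smul, abs_of_nonneg (by positivity)]
  have h1 := F.n_Ps j (F.A (F.ThD j v))
  have h2 := F.norm_A_Th j v
  have h3 : (0 : ℝ) ≤ Real.sqrt (2 ^ j) := Real.sqrt_nonneg _
  have h4 : (1 / 2 : ℝ) ^ j * 2 ^ j = 1 := by rw [← mul_pow]; norm_num
  calc (1 / 2 : ℝ) * (1 / 2) ^ j * F.nG 1 (F.PsD j (F.A (F.ThD j v)) : H)
      ≤ (1 / 2 : ℝ) * (1 / 2) ^ j * (204 * Real.sqrt (2 ^ j) * (4 * 2 ^ j * ‖v‖)) := by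
        refine mul_le_mul_of_nonneg_left (h1.trans ?_) (by positivity)
        exact mul_le_mul_of_nonneg_left h2 (by positivity)
    _ = 408 * ((1 / 2 : ℝ) ^ j * 2 ^ j) * Real.sqrt (2 ^ j) * ‖v‖ := by ring
    _ ≤ 460 * Real.sqrt (2 ^ j) * ‖v‖ := by
        rw [h4]
        have : 0 ≤ Real.sqrt ((2 : ℝ) ^ j) * ‖v‖ := by positivity
        nlinarith

/-! the decomposition -/

/-- `h_j` -/
def hj (h : H) (j : ℕ) : H := F.J (j + 1) h - F.J j (F.J (j + 1) h)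

/-- `E_j = J_j³` -/
def E (j : ℕ) (u : H) : H := F.J j (F.J j (F.J j u))

/-- `T_j²` -/
def T2 (j : ℕ) (u : H) : H := u - (2 : ℝ) • F.E j u + F.E j (F.E j u)

theorem decomp (j : ℕ) (z : F.D) : F.T2 j z - F.T2 (j + 1) z = (F.pc j (F.hj (F.A z) j) : H) := by
  have hc : ∀ x, F.J j (F.J (j + 1) x) = F.J (j + 1) (F.J j x) := fun x => F.comm _ _ x
  set h := F.A z with hh
  set g : H := (2 : ℝ) • (z : H) - F.E j z - F.E (j + 1) z with hg
  have ha : (F.ThD j h : H) = (2 : ℝ) ^ j • g := by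
    have h1 : F.J j h = (2 : ℝ) ^ j • ((z : H) - F.J j z) := F.JA j z
    have h2 : F.J (j + 1) h = (2 : ℝ) ^ (j + 1) • ((z : H) - F.J (j + 1) z) := F.JA (j + 1) z
    simp only [ThD, Submodule.coe_add, Submodule.coe_smul, coe_JD, h1, h2, map_smul, map_sub, hg, E]
    module
  have hb : (F.ThD j (F.hj h j) : H) =
      F.J (j + 1) (F.ThD j h : H) - F.J j (F.J (j + 1) (F.ThD j h : H)) := by
    simp only [ThD, hj, Submodule.coe_add, Submodule.coe_smul, coe_JD, map_add, map_sub, map_smul, hc]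
    module
  have hcc : ∀ x, (F.PsD j (F.J (j + 1) x - F.J j (F.J (j + 1) x)) : H) =
      (2 : ℝ) • (F.E (j + 1) x - F.E j x) := by
    intro x
    have h3 : F.J (j + 1) x - F.J j (F.J (j + 1) x) = (2 : ℝ) • (F.J (j + 1) x - F.J j x) := by
      rw [F.diff j x, smul_smul]; norm_num
    rw [h3]
    simp only [PsD, E, Submodule.coe_add, coe_JD, map_sub, map_smul, hc]
    module
  have hlin : ∀ (c : ℝ) (x : H), (F.PsD j (c • x) : H) = c • (F.PsD j x : H) := by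
    intro c x
    simp only [PsD, Submodule.coe_add, coe_JD, map_smul]
    module
  have e1 : (F.pc j (F.hj h j) : H) = ((1 / 2 : ℝ) * (1 / 2) ^ j) • (F.PsD j (F.ThD j (F.hj h j)) : H) := rfl
  rw [e1, hb, ha]
  have e2 : F.J (j + 1) ((2 : ℝ) ^ j • g) - F.J j (F.J (j + 1) ((2 : ℝ) ^ j • g)) =
      (2 : ℝ) ^ j • (F.J (j + 1) g - F.J j (F.J (j + 1) g)) := by
    simp only [map_smul, smul_sub]
  rw [e2, hlin, hcc, smul_smul, smul_smul]
  have e3 : (1 / 2 : ℝ) * (1 / 2) ^ j * 2 ^ j * 2 = 1 := by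
    have h4 : (1 / 2 : ℝ) ^ j * 2 ^ j = 1 := by rw [← mul_pow]; norm_num
    rw [mul_assoc (1 / 2 : ℝ), h4]; norm_num
  rw [e3, one_smul]
  simp only [T2, hg, E, map_sub, map_smul, hc]
  module

/-- square function -/
theorem sq_fun (h : H) (j : ℕ) :
    ‖F.hj h j‖ ^ 2 ≤ 4 / 3 * (‖F.J (j + 1) h‖ ^ 2 - ‖F.J j h‖ ^ 2) := by
  set u := F.J (j + 1) h with hu
  have h1 : F.hj h j = u - F.J j u := rfl
  have h2 : u - F.J j h = (1 / 2 : ℝ) • (u - F.J j u) := F.diff j h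
  have h3 : ‖u - F.J j u‖ ^ 2 = ‖u‖ ^ 2 - 2 * ⟪u, F.J j u⟫ + ‖F.J j u‖ ^ 2 := norm_sub_sq_real _ _
  have h4 := F.firm j u
  rw [real_inner_comm] at h4
  have h5 : ⟪u - F.J j u, u⟫ = ‖u‖ ^ 2 - ⟪u, F.J j u⟫ := by
    rw [inner_sub_left, real_inner_self_eq_norm_sq, real_inner_comm]
  have h6 : F.J j h = u - (1 / 2 : ℝ) • (u - F.J j u) := by rw [← h2]; abel
  have h7 : ‖F.J j h‖ ^ 2 = ‖u‖ ^ 2 - ⟪u - F.J j u, u⟫ + 1 / 4 * ‖u - F.J j u‖ ^ 2 := by
    rw [h6, norm_sub_sq_real, real_inner_smul_right, norm_smul, Real.norm_of_nonneg (by norm_num),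
      real_inner_comm]
    ring
  rw [h1]
  nlinarith

theorem sq_sum (h : H) (N : ℕ) : ∑ j ∈ Finset.range N, ‖F.hj h j‖ ^ 2 ≤ 4 / 3 * ‖h‖ ^ 2 := by
  have h1 : ∑ j ∈ Finset.range N, ‖F.hj h j‖ ^ 2 ≤
      4 / 3 * (‖F.J N h‖ ^ 2 - ‖F.J 0 h‖ ^ 2) := by
    induction N with
    | zero => simp
    | succ N ih =>
      rw [Finset.sum_range_succ]
      have := F.sq_fun h N
      linarith
  have h2 : ‖F.J N h‖ ^ 2 ≤ ‖h‖ ^ 2 := pow_le_pow_left₀ (norm_nonneg _) (F.norm_J N h) 2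
  have h3 := sq_nonneg ‖F.J 0 h‖
  linarith

/-- the form `d_1` -/
noncomputable def nd (w : F.D) : ℝ := Real.sqrt (F.d 1 w w)

theorem nd_nonneg (w : F.D) : 0 ≤ F.nd w := Real.sqrt_nonneg _

theorem nd_sq (w : F.D) : F.nd w ^ 2 = F.d 1 w w := Real.sq_sqrt (F.dpos 0 w)

theorem d_cs (w w' : F.D) : |F.d 1 w w'| ≤ F.nd w * F.nd w' := by
  have key : F.d 1 w w' ^ 2 ≤ F.d 1 w w * F.d 1 w' w' := by
    refine LinearMap.BilinForm.apply_sq_le_of_symm (F.d 1) (F.dpos 0) ⟨fun x y => ?_⟩ w w'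
    simpa using F.dsymm x y
  rw [← F.nd_sq, ← F.nd_sq, ← mul_pow] at key
  exact abs_le_of_sq_le_sq key (mul_nonneg (F.nd_nonneg _) (F.nd_nonneg _))

theorem nd_add (w w' : F.D) : F.nd (w + w') ≤ F.nd w + F.nd w' := by
  refine (sq_le_sq₀ (F.nd_nonneg _) (add_nonneg (F.nd_nonneg _) (F.nd_nonneg _))).1 ?_
  rw [F.nd_sq]
  have h1 := (le_abs_self _).trans (F.d_cs w w')
  have h2 := F.nd_sq w
  have h3 := F.nd_sq w'
  have h4 := F.dsymm w' w
  simp only [map_add, LinearMap.add_apply]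
  nlinarith

theorem cs1 (w w' : F.D) : |⟪F.A w, F.G 1 (w' : H)⟫ - F.d 1 w w'| ≤ 3 * F.nd w * F.nG 1 w' := by
  have h := F.cs 0 w w'
  simp only [zero_add, Nat.cast_zero, div_one] at h
  rw [← F.nd_sq, ← F.nG_sq] at h
  have h2 : (⟪F.A w, F.G 1 (w' : H)⟫ - F.d 1 w w') ^ 2 ≤ (3 * F.nd w * F.nG 1 w') ^ 2 := by
    refine h.trans (le_of_eq ?_)
    ring
  have h3 := F.nd_nonneg w
  have h4 := F.nG_nonneg 1 (w' : H)
  exact abs_le_of_sq_le_sq h2 (by positivity)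

theorem d_bound (w : F.D) : F.nd w ^ 2 ≤ 2 * F.nG 1 (F.A w) * F.nG 1 w + 9 * F.nG 1 w ^ 2 := by
  have h1 := (abs_le.1 (F.cs1 w w)).1
  have h2 := F.G_cs 1 (F.A w) w
  have h3 := F.nd_sq w
  nlinarith [sq_nonneg (F.nd w - 3 * F.nG 1 (w : H))]

theorem cross (w w' : F.D) : |F.d 1 w w'| ≤ (F.nG 1 (F.A w) + 3 * F.nd w) * F.nG 1 w' := by
  have h1 := F.cs1 w w'
  have h2 := F.G_cs_abs 1 (F.A w) w'
  have h3 : F.d 1 w w' = ⟪F.A w, F.G 1 (w' : H)⟫ - (⟪F.A w, F.G 1 (w' : H)⟫ - F.d 1 w w') := by ring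
  rw [h3]
  refine (abs_sub _ _).trans ?_
  linarith

theorem nd_pc (j : ℕ) (v : H) : F.nd (F.pc j v) ≤ 1840 * ‖v‖ := by
  have h1 := F.d_bound (F.pc j v)
  have h2 := F.n_pc j v
  have h3 := F.n_A_pc j v
  have h4 := F.nG_nonneg 1 (F.pc j v : H)
  have h5 := F.nG_nonneg 1 (F.A (F.pc j v))
  have ht : (1 : ℝ) ≤ Real.sqrt (2 ^ j) := by
    rw [Real.one_le_sqrt]; exact one_le_pow₀ (by norm_num)
  have ht0 : 0 < Real.sqrt ((2 : ℝ) ^ j) := by linarith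
  have hv := norm_nonneg v
  have h6 : F.nG 1 (F.A (F.pc j v)) * F.nG 1 (F.pc j v : H) ≤ 460 ^ 2 * ‖v‖ ^ 2 := by
    calc F.nG 1 (F.A (F.pc j v)) * F.nG 1 (F.pc j v : H) ≤
        (460 * Real.sqrt (2 ^ j) * ‖v‖) * (460 / Real.sqrt (2 ^ j) * ‖v‖) :=
          mul_le_mul h3 h2 h4 (by positivity)
      _ = _ := by field_simp
  have h7 : F.nG 1 (F.pc j v : H) ≤ 460 * ‖v‖ := by
    refine h2.trans (mul_le_mul_of_nonneg_right ?_ hv)
    exact div_le_self (by norm_num) ht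
  have h8 : F.nG 1 (F.pc j v : H) ^ 2 ≤ (460 * ‖v‖) ^ 2 := pow_le_pow_left₀ h4 h7 2
  refine (sq_le_sq₀ (F.nd_nonneg _) (by positivity)).1 ?_
  nlinarith

theorem cross_pc {i l : ℕ} (hil : i ≤ l) (v v' : H) : |F.d 1 (F.pc i v) (F.pc l v')| ≤
    2750800 * (Real.sqrt 2 / 2) ^ (l - i) * ‖v‖ * ‖v'‖ := by
  have h1 := F.cross (F.pc i v) (F.pc l v')
  have h2 := F.n_pc l v'
  have h3 := F.n_A_pc i v
  have h4 := F.nd_pc i v
  have ht : (1 : ℝ) ≤ Real.sqrt (2 ^ i) := by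
    rw [Real.one_le_sqrt]; exact one_le_pow₀ (by norm_num)
  have hv := norm_nonneg v
  have h5 : F.nG 1 (F.A (F.pc i v)) + 3 * F.nd (F.pc i v) ≤ 5980 * Real.sqrt (2 ^ i) * ‖v‖ := by
    have : 5520 * ‖v‖ ≤ 5520 * Real.sqrt (2 ^ i) * ‖v‖ := by nlinarith
    linarith
  have h6 : Real.sqrt ((2 : ℝ) ^ i) / Real.sqrt (2 ^ l) = (Real.sqrt 2 / 2) ^ (l - i) := by
    obtain ⟨m, rfl⟩ := Nat.exists_eq_add_of_le hil
    rw [Nat.add_sub_cancel_left, ← Real.sqrt_div' _ (by positivity)]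
    have h7 : (Real.sqrt 2 / 2) ^ m = Real.sqrt ((1 / 2) ^ m) := by
      rw [← Real.sqrt_sq (by positivity : 0 ≤ (Real.sqrt 2 / 2) ^ m)]
      congr 1
      rw [← pow_mul, mul_comm m 2, pow_mul, div_pow, Real.sq_sqrt (by norm_num)]
      norm_num
    rw [h7]
    congr 1
    rw [pow_add, one_div_pow]
    field_simp
  calc |F.d 1 (F.pc i v) (F.pc l v')| ≤ (F.nG 1 (F.A (F.pc i v)) + 3 * F.nd (F.pc i v)) *
        F.nG 1 (F.pc l v' : H) := h1
    _ ≤ (5980 * Real.sqrt (2 ^ i) * ‖v‖) * (460 / Real.sqrt (2 ^ l) * ‖v'‖) :=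
        mul_le_mul h5 h2 (F.nG_nonneg _ _) (by positivity)
    _ = 2750800 * (Real.sqrt (2 ^ i) / Real.sqrt (2 ^ l)) * ‖v‖ * ‖v'‖ := by ring
    _ = _ := by rw [h6]

/-- the sum of the pieces -/
noncomputable def S (h : H) (N : ℕ) : F.D := ∑ j ∈ Finset.range N, F.pc j (F.hj h j)

/-- auxiliary weighted sum -/
noncomputable def cN (h : H) (N : ℕ) : ℝ :=
  ∑ i ∈ Finset.range N, (Real.sqrt 2 / 2) ^ (N - i) * ‖F.hj h i‖

theorem cN_succ (h : H) (N : ℕ) : F.cN h (N + 1) = Real.sqrt 2 / 2 * (F.cN h N + ‖F.hj h N‖) := by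
  unfold cN
  rw [Finset.sum_range_succ, mul_add, Finset.mul_sum]
  congr 1
  · refine Finset.sum_congr rfl fun i hi => ?_
    have : N + 1 - i = (N - i) + 1 := by
      have := Finset.mem_range.1 hi
      omega
    rw [this, pow_succ]; ring
  · simp

theorem cN_nonneg (h : H) (N : ℕ) : 0 ≤ F.cN h N :=
  Finset.sum_nonneg fun i _ => by positivity

theorem sum_bound (h : H) (N : ℕ) : F.d 1 (F.S h N) (F.S h N) + 4 * 2750800 * F.cN h N ^ 2 ≤
    8 * 2750800 * ∑ j ∈ Finset.range N, ‖F.hj h j‖ ^ 2 := by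
  induction N with
  | zero => simp [S, cN]
  | succ N ih =>
    have e : F.S h (N + 1) = F.S h N + F.pc N (F.hj h N) := by
      unfold S
      rw [Finset.sum_range_succ]
    have h1 : F.d 1 (F.S h N) (F.pc N (F.hj h N)) ≤ 2750800 * F.cN h N * ‖F.hj h N‖ := by
      unfold S cN
      rw [map_sum, LinearMap.sum_apply, Finset.mul_sum, Finset.sum_mul]
      refine Finset.sum_le_sum fun i hi => ?_
      refine (le_abs_self _).trans ((F.cross_pc (Finset.mem_range.1 hi).le _ _).trans (le_of_eq ?_))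
      ring
    have h2 : F.d 1 (F.pc N (F.hj h N)) (F.pc N (F.hj h N)) ≤ 2750800 * ‖F.hj h N‖ ^ 2 := by
      have h3 := (le_abs_self _).trans (F.cross_pc (le_refl N) (F.hj h N) (F.hj h N))
      rw [Nat.sub_self, pow_zero, mul_one] at h3
      refine h3.trans (le_of_eq ?_)
      ring
    have h4 : F.d 1 (F.S h (N + 1)) (F.S h (N + 1)) = F.d 1 (F.S h N) (F.S h N) +
        2 * F.d 1 (F.S h N) (F.pc N (F.hj h N)) + F.d 1 (F.pc N (F.hj h N)) (F.pc N (F.hj h N)) := by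
      rw [e]
      simp only [map_add, LinearMap.add_apply]
      rw [F.dsymm (F.pc N (F.hj h N)) (F.S h N)]
      ring
    have h5 : F.cN h (N + 1) ^ 2 = 1 / 2 * (F.cN h N + ‖F.hj h N‖) ^ 2 := by
      rw [F.cN_succ, mul_pow, div_pow, Real.sq_sqrt (by norm_num)]
      ring
    rw [h4, h5, Finset.sum_range_succ]
    nlinarith [sq_nonneg (F.cN h N - ‖F.hj h N‖), sq_nonneg (F.cN h N - 2 * ‖F.hj h N‖)]

/-- the low frequency part -/
def low (z : F.D) : F.D := F.JD 0 (F.J 0 (F.J 0 ((2 : ℝ) • (z : H) - F.E 0 z)))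

theorem nd_low (z : F.D) : F.nd (F.low z) ≤ 480 * ‖(z : H)‖ := by
  set χ := (2 : ℝ) • (z : H) - F.E 0 z with hχ
  have hχn : ‖χ‖ ≤ 3 * ‖(z : H)‖ := by
    have h1 := norm_sub_le ((2 : ℝ) • (z : H)) (F.E 0 z)
    have h2 : ‖F.E 0 z‖ ≤ ‖(z : H)‖ := F.norm_JJJ 0 0 0 z
    rw [norm_smul, Real.norm_of_nonneg (by norm_num)] at h1
    linarith
  have h1 : F.nG 1 (F.low z : H) ≤ 48 * ‖χ‖ := by
    have h2 := F.n_two 0 (F.J 0 χ)
    have h3 := F.norm_J 0 χ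
    have e : (F.low z : H) = F.J 0 (F.J 0 (F.J 0 χ)) := rfl
    rw [e]
    simp only [pow_zero, Real.sqrt_one, mul_one] at h2
    linarith
  have h2 : F.nG 1 (F.A (F.low z)) ≤ 48 * ‖χ‖ := by
    have e : F.A (F.low z) = F.J 0 (F.J 0 (χ - F.J 0 χ)) := by
      rw [low, F.A_JD, pow_zero, one_smul, ← hχ, map_sub (F.J 0) χ (F.J 0 χ),
        map_sub (F.J 0) (F.J 0 χ) (F.J 0 (F.J 0 χ))]
    rw [e]
    have h2 := F.n_two 0 (χ - F.J 0 χ)
    have h3 := F.norm_sub_J 0 χ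
    simp only [pow_zero, Real.sqrt_one, mul_one] at h2
    linarith
  have h3 := F.d_bound (F.low z)
  have h4 := F.nG_nonneg 1 (F.low z : H)
  have h5 := F.nG_nonneg 1 (F.A (F.low z))
  have h6 : F.nG 1 (F.A (F.low z)) * F.nG 1 (F.low z : H) ≤ (48 * ‖χ‖) * (48 * ‖χ‖) :=
    mul_le_mul h2 h1 h4 (by positivity)
  have h7 : F.nG 1 (F.low z : H) ^ 2 ≤ (48 * ‖χ‖) ^ 2 := pow_le_pow_left₀ h4 h1 2
  have h8 : ‖χ‖ ^ 2 ≤ (3 * ‖(z : H)‖) ^ 2 := pow_le_pow_left₀ (norm_nonneg _) hχn 2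
  refine (sq_le_sq₀ (F.nd_nonneg _) (by positivity)).1 ?_
  nlinarith

/-- the high frequency remainder -/
def rem (N : ℕ) (z : F.D) : F.D := z - (2 : ℝ) • F.JD N (F.J N (F.J N z)) +
  F.JD N (F.J N (F.J N (F.E N z)))

theorem coe_rem (N : ℕ) (z : F.D) : (F.rem N z : H) = F.T2 N z := rfl

theorem A_rem (N : ℕ) (z : F.D) : F.A (F.rem N z) = F.T2 N (F.A z) := by
  have h1 := F.A_JJJ N N N z
  have h2 := F.A_JJJ N N N (F.JD N (F.J N (F.J N z)))
  rw [h1] at h2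
  have e : F.E N z = ((F.JD N (F.J N (F.J N z)) : F.D) : H) := rfl
  rw [rem, e, map_add, map_sub, map_smul, h1, h2]
  rfl

theorem split (z : F.D) (N : ℕ) : z = F.low z + F.S (F.A z) N + F.rem N z := by
  have h1 : ∀ N, F.T2 0 z - F.T2 N z = (F.S (F.A z) N : H) := by
    intro N
    induction N with
    | zero => simp [S]
    | succ N ih =>
      have e : F.S (F.A z) (N + 1) = F.S (F.A z) N + F.pc N (F.hj (F.A z) N) := by
        unfold S
        rw [Finset.sum_range_succ]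
      rw [e, Submodule.coe_add, ← ih, ← F.decomp]
      abel
  refine Subtype.ext ?_
  rw [Submodule.coe_add, Submodule.coe_add, coe_rem, ← h1]
  have e : (F.low z : H) = (z : H) - F.T2 0 z := by
    have e1 : (F.low z : H) = F.J 0 (F.J 0 (F.J 0 ((2 : ℝ) • (z : H) - F.E 0 z))) := rfl
    rw [e1]
    simp only [T2, map_sub, map_smul]
    simp only [E]
    abel
  rw [e]; abel

theorem lim_comp {f : ℕ → H} {u : H} (hf : Tendsto f atTop (𝓝 u)) :
    Tendsto (fun N => F.J N (f N)) atTop (𝓝 u) := by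
  have h1 : ∀ N, F.J N (f N) = F.J N (f N - u) + F.J N u := by
    intro N; rw [map_sub]; abel
  have h2 : Tendsto (fun N => F.J N (f N - u)) atTop (𝓝 0) := by
    have h3 : Tendsto (fun N => ‖f N - u‖) atTop (𝓝 0) := by
      have := (hf.sub_const u).norm
      simpa using this
    exact squeeze_zero_norm (fun N => F.norm_J N _) h3
  have h4 := h2.add (F.lim u)
  rw [zero_add] at h4
  exact h4.congr fun N => (h1 N).symm

theorem lim_T2 (u : H) : Tendsto (fun N => F.T2 N u) atTop (𝓝 0) := by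
  have hE : ∀ {f : ℕ → H} {u : H}, Tendsto f atTop (𝓝 u) → Tendsto (fun N => F.E N (f N)) atTop (𝓝 u) :=
    fun hf => F.lim_comp (F.lim_comp (F.lim_comp hf))
  have h1 : Tendsto (fun N => F.E N u) atTop (𝓝 u) := hE tendsto_const_nhds
  have h2 : Tendsto (fun N => F.E N (F.E N u)) atTop (𝓝 u) := hE h1
  have h3 := (tendsto_const_nhds (x := u)).sub (h1.const_smul (2 : ℝ)) |>.add h2
  have e : u - (2 : ℝ) • u + u = 0 := by module
  rw [e] at h3
  exact h3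

/-- **(K)**: the abstract layer -/
theorem main (z : F.D) (hz : ‖(z : H)‖ ≤ ‖F.A z‖) : F.d 1 z z ≤ 5900 ^ 2 * ‖F.A z‖ ^ 2 := by
  have h1 : ∀ N, F.nd z ≤ 5900 * ‖F.A z‖ + F.nd (F.rem N z) := by
    intro N
    have h2 : F.nd z ≤ F.nd (F.low z) + F.nd (F.S (F.A z) N) + F.nd (F.rem N z) := by
      conv_lhs => rw [F.split z N]
      exact (F.nd_add _ _).trans (add_le_add (F.nd_add _ _) le_rfl)
    have h3 := F.nd_low z
    have h4 : F.nd (F.S (F.A z) N) ≤ 5420 * ‖F.A z‖ := by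
      refine (sq_le_sq₀ (F.nd_nonneg _) (by positivity)).1 ?_
      rw [F.nd_sq]
      have h5 := F.sum_bound (F.A z) N
      have h6 := F.sq_sum (F.A z) N
      have h7 := sq_nonneg (F.cN (F.A z) N)
      have h8 := sq_nonneg ‖F.A z‖
      nlinarith
    linarith
  have h2 : Tendsto (fun N => F.nd (F.rem N z)) atTop (𝓝 0) := by
    have h3 : ∀ N, F.nd (F.rem N z) ≤
        Real.sqrt (F.M * (‖F.T2 N (z : H)‖ * ‖F.T2 N (F.A z)‖ + ‖F.T2 N (z : H)‖ ^ 2)) := by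
      intro N
      refine Real.sqrt_le_sqrt ?_
      have := F.dle (F.rem N z)
      rwa [F.A_rem, coe_rem] at this
    have h4 : Tendsto (fun N => Real.sqrt (F.M * (‖F.T2 N (z : H)‖ * ‖F.T2 N (F.A z)‖ +
        ‖F.T2 N (z : H)‖ ^ 2))) atTop
        (𝓝 (Real.sqrt (F.M * (‖(0 : H)‖ * ‖(0 : H)‖ + ‖(0 : H)‖ ^ 2)))) :=
      (Real.continuous_sqrt.tendsto _).comp
        ((((F.lim_T2 (z : H)).norm.mul (F.lim_T2 (F.A z)).norm).add
          ((F.lim_T2 (z : H)).norm.pow 2)).const_mul _)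
    rw [norm_zero, mul_zero, zero_pow two_ne_zero, add_zero, mul_zero, Real.sqrt_zero] at h4
    exact squeeze_zero (fun N => F.nd_nonneg _) h3 h4
  have h3 : F.nd z ≤ 5900 * ‖F.A z‖ := by
    have h4 := h2.const_add (5900 * ‖F.A z‖)
    rw [add_zero] at h4
    exact ge_of_tendsto' h4 h1
  rw [← F.nd_sq, ← mul_pow]
  exact pow_le_pow_left₀ (F.nd_nonneg _) h3 2

end Fr

end Vale.Agent.P245.AbsRes
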